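import Vale.Agent.P295.Four

open Vale.Agent.P295 in
/-- The stable coordinate conjecture is false, already in four variables: the explicit degree five
polynomial `polyF` is a `1`-stable coordinate of `ℂ[x₁,…,x₄]` but not a coordinate (although all
of its fibres are affine three-spaces). -/
theorem Vale.Agent.Results.P295.A_full.result :
    (IsStableCoordinateOfOrder 1 polyF ∧ ¬ IsCoordinate polyF ∧
      ∀ c : ℂ, Nonempty ((MvPolynomial (Fin 4) ℂ ⧸ Ideal.span {polyF - MvPolynomial.C c}) ≃ₐ[ℂ]
        MvPolynomial (Fin 3) ℂ)) ∧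
    ¬ ∀ n : ℕ, 1 ≤ n → ∀ f : MvPolynomial (Fin n) ℂ, IsStableCoordinate f → IsCoordinate f :=
  main_four
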